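import Mathlib

/-!
# One-variable lemma: no blow-up at a finite endpoint
-/

namespace Vale.Agent.Lib.P252

open Set

/-- If `φ` is positive and concave on `[t0, β)` and `f'' = φ^(-q)` there with `1 < q < 2`,
then `f` is bounded on `[t0, β)`. -/
theorem bounded_near_right_endpoint {f f' g φ : ℝ → ℝ} {t0 β q : ℝ} (h0 : t0 < β)
    (hq1 : 1 < q) (hq2 : q < 2)
    (hf : ∀ t ∈ Ico t0 β, HasDerivAt f (f' t) t)
    (hf' : ∀ t ∈ Ico t0 β, HasDerivAt f' (g t) t)
    (hφpos : ∀ t ∈ Ico t0 β, 0 < φ t)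
    (hgφ : ∀ t ∈ Ico t0 β, g t = φ t ^ (-q))
    (hconc : ConcaveOn ℝ (Ico t0 β) φ) :
    ∃ M, ∀ t ∈ Ico t0 β, |f t| ≤ M := by
  have hd : 0 < β - t0 := by linarith
  have ht0 : t0 ∈ Ico t0 β := ⟨le_rfl, h0⟩
  set k := φ t0 / (2 * (β - t0)) with hk
  have hkpos : 0 < k := div_pos (hφpos t0 ht0) (by linarith)
  -- Step 1: linear lower bound for φ
  have h1 : ∀ t ∈ Ico t0 β, k * (β - t) ≤ φ t := by
    intro t ht
    set t' := (t + β) / 2 with ht'
    have ht'mem : t' ∈ Ico t0 β :=
      ⟨by rw [ht']; linarith [ht.1, ht.2], by rw [ht']; linarith [ht.2]⟩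
    have hden : 0 < t' - t0 := by rw [ht']; linarith [ht.1, ht.2]
    have ha : 0 ≤ (t' - t) / (t' - t0) := div_nonneg (by rw [ht']; linarith [ht.2]) hden.le
    have hb : 0 ≤ (t - t0) / (t' - t0) := div_nonneg (by linarith [ht.1]) hden.le
    have hab : (t' - t) / (t' - t0) + (t - t0) / (t' - t0) = 1 := by
      field_simp
      ring
    have hc := hconc.2 ht0 ht'mem ha hb hab
    have hpt : ((t' - t) / (t' - t0)) • t0 + ((t - t0) / (t' - t0)) • t' = t := by
      simp only [smul_eq_mul]
      field_simp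
      ring
    rw [hpt] at hc
    simp only [smul_eq_mul] at hc
    have hφt' := hφpos t' ht'mem
    have h2 : (t' - t) / (t' - t0) * φ t0 ≤ φ t := by
      have : 0 ≤ (t - t0) / (t' - t0) * φ t' := mul_nonneg hb hφt'.le
      linarith
    have h3 : k * (β - t) ≤ (t' - t) / (t' - t0) * φ t0 := by
      rw [hk]
      have e1 : t' - t = (β - t) / 2 := by rw [ht']; ring
      rw [e1]
      have hφ0 := hφpos t0 ht0
      have hle : t' - t0 ≤ β - t0 := by rw [ht']; linarith [ht.2]
      have hnum : 0 ≤ φ t0 * (β - t) := mul_nonneg hφ0.le (by linarith [ht.2])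
      calc φ t0 / (2 * (β - t0)) * (β - t) = φ t0 * (β - t) / (2 * (β - t0)) := by ring
        _ ≤ φ t0 * (β - t) / (2 * (t' - t0)) :=
            div_le_div_of_nonneg_left hnum (by linarith) (by linarith)
        _ = (β - t) / 2 / (t' - t0) * φ t0 := by
            field_simp
    linarith
  -- Step 2: upper bound for g
  have h2 : ∀ t ∈ Ico t0 β, g t ≤ k ^ (-q) * (β - t) ^ (-q) := by
    intro t ht
    have hbt : 0 < β - t := by linarith [ht.2]
    rw [hgφ t ht, ← Real.mul_rpow hkpos.le hbt.le]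
    exact Real.rpow_le_rpow_of_nonpos (mul_pos hkpos hbt) (h1 t ht) (by linarith)
  have hKpos : 0 < k ^ (-q) := Real.rpow_pos_of_pos hkpos _
  set B := k ^ (-q) / (q - 1) with hB
  have hBpos : 0 < B := div_pos hKpos (by linarith)
  have hpow : ∀ (p : ℝ) (t : ℝ), t < β →
      HasDerivAt (fun y => (β - y) ^ p) (-1 * p * (β - t) ^ (p - 1)) t := by
    intro p t ht
    have hne : β - t ≠ 0 := by linarith
    exact ((hasDerivAt_id t).const_sub β).rpow_const (Or.inl hne)
  -- Step 3: bound for f'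
  have hH1 : ∀ t ∈ Ico t0 β, HasDerivAt (fun y => f' y - B * (β - y) ^ (1 - q))
      (g t - B * (-1 * (1 - q) * (β - t) ^ (1 - q - 1))) t :=
    fun t ht => (hf' t ht).sub ((hpow (1 - q) t ht.2).const_mul B)
  have hA1 : AntitoneOn (fun y => f' y - B * (β - y) ^ (1 - q)) (Ico t0 β) := by
    apply antitoneOn_of_deriv_nonpos (convex_Ico t0 β)
    · exact fun t ht => (hH1 t ht).continuousAt.continuousWithinAt
    · exact fun t ht => (hH1 t (interior_subset ht)).differentiableAt.differentiableWithinAt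
    · intro t ht
      have htm := interior_subset ht
      rw [(hH1 t htm).deriv]
      have e : (1 : ℝ) - q - 1 = -q := by ring
      rw [e]
      have e2 : B * (-1 * (1 - q) * (β - t) ^ (-q)) = k ^ (-q) * (β - t) ^ (-q) := by
        rw [hB]
        have : q - 1 ≠ 0 := by linarith
        field_simp
        ring
      rw [e2]
      linarith [h2 t htm]
  have h3 : ∀ t ∈ Ico t0 β, f' t ≤ f' t0 + B * (β - t) ^ (1 - q) := by
    intro t ht
    have := hA1 ht0 ht ht.1
    simp only at this
    have hnn : 0 ≤ B * (β - t0) ^ (1 - q) :=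
      mul_nonneg hBpos.le (Real.rpow_nonneg hd.le _)
    linarith
  -- Step 4: upper bound for f
  have hH2 : ∀ t ∈ Ico t0 β,
      HasDerivAt (fun y => f y - f' t0 * y + B / (2 - q) * (β - y) ^ (2 - q))
      (f' t - f' t0 * 1 + B / (2 - q) * (-1 * (2 - q) * (β - t) ^ (2 - q - 1))) t :=
    fun t ht => ((hf t ht).sub ((hasDerivAt_id t).const_mul _)).add
      ((hpow (2 - q) t ht.2).const_mul _)
  have hA2 : AntitoneOn (fun y => f y - f' t0 * y + B / (2 - q) * (β - y) ^ (2 - q))
      (Ico t0 β) := by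
    apply antitoneOn_of_deriv_nonpos (convex_Ico t0 β)
    · exact fun t ht => (hH2 t ht).continuousAt.continuousWithinAt
    · exact fun t ht => (hH2 t (interior_subset ht)).differentiableAt.differentiableWithinAt
    · intro t ht
      have htm := interior_subset ht
      rw [(hH2 t htm).deriv]
      have e : (2 : ℝ) - q - 1 = 1 - q := by ring
      rw [e]
      have e2 : B / (2 - q) * (-1 * (2 - q) * (β - t) ^ (1 - q)) = -(B * (β - t) ^ (1 - q)) := by
        have : 2 - q ≠ 0 := by linarith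
        field_simp
      rw [e2]
      linarith [h3 t htm]
  have h4 : ∀ t ∈ Ico t0 β,
      f t ≤ f t0 - f' t0 * t0 + B / (2 - q) * (β - t0) ^ (2 - q) + f' t0 * t := by
    intro t ht
    have := hA2 ht0 ht ht.1
    simp only at this
    have hnn : 0 ≤ B / (2 - q) * (β - t) ^ (2 - q) :=
      mul_nonneg (div_nonneg hBpos.le (by linarith))
        (Real.rpow_nonneg (by linarith [ht.2]) _)
    linarith
  -- Step 5: lower bound for f
  have hM1 : MonotoneOn f' (Ico t0 β) := by
    apply monotoneOn_of_deriv_nonneg (convex_Ico t0 β)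
    · exact fun t ht => (hf' t ht).continuousAt.continuousWithinAt
    · exact fun t ht => (hf' t (interior_subset ht)).differentiableAt.differentiableWithinAt
    · intro t ht
      have htm := interior_subset ht
      rw [(hf' t htm).deriv, hgφ t htm]
      exact Real.rpow_nonneg (hφpos t htm).le _
  have hH3 : ∀ t ∈ Ico t0 β, HasDerivAt (fun y => f y - f' t0 * y) (f' t - f' t0 * 1) t :=
    fun t ht => (hf t ht).sub ((hasDerivAt_id t).const_mul _)
  have hM3 : MonotoneOn (fun y => f y - f' t0 * y) (Ico t0 β) := by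
    apply monotoneOn_of_deriv_nonneg (convex_Ico t0 β)
    · exact fun t ht => (hH3 t ht).continuousAt.continuousWithinAt
    · exact fun t ht => (hH3 t (interior_subset ht)).differentiableAt.differentiableWithinAt
    · intro t ht
      have htm := interior_subset ht
      rw [(hH3 t htm).deriv]
      have := hM1 ht0 htm htm.1
      linarith
  have h5 : ∀ t ∈ Ico t0 β, f t0 - f' t0 * t0 + f' t0 * t ≤ f t := by
    intro t ht
    have := hM3 ht0 ht ht.1
    simp only at this
    linarith
  refine ⟨|f t0 - f' t0 * t0 + B / (2 - q) * (β - t0) ^ (2 - q)| + |f t0 - f' t0 * t0| +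
    |f' t0| * (|t0| + |β|), fun t ht => ?_⟩
  have habs : |f' t0 * t| ≤ |f' t0| * (|t0| + |β|) := by
    rw [abs_mul]
    apply mul_le_mul_of_nonneg_left _ (abs_nonneg _)
    rw [abs_le]
    constructor
    · have := neg_abs_le t0
      have := abs_nonneg β
      linarith [ht.1]
    · have := le_abs_self β
      have := abs_nonneg t0
      linarith [ht.2]
  have hu := h4 t ht
  have hl := h5 t ht
  have a1 := le_abs_self (f t0 - f' t0 * t0 + B / (2 - q) * (β - t0) ^ (2 - q))
  have a2 := neg_abs_le (f t0 - f' t0 * t0)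
  have a3 := le_abs_self (f' t0 * t)
  have a4 := neg_abs_le (f' t0 * t)
  have a5 := abs_nonneg (f t0 - f' t0 * t0 + B / (2 - q) * (β - t0) ^ (2 - q))
  have a6 := abs_nonneg (f t0 - f' t0 * t0)
  rw [abs_le]
  constructor <;> linarith

end Vale.Agent.Lib.P252

namespace Vale.Agent.Lib.P252

open Set

/-- The mirror image of `bounded_near_right_endpoint`: no blow-up at a finite left endpoint. -/
theorem bounded_near_left_endpoint {f f' g φ : ℝ → ℝ} {α t0 q : ℝ} (h0 : α < t0)
    (hq1 : 1 < q) (hq2 : q < 2)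
    (hf : ∀ t ∈ Ioc α t0, HasDerivAt f (f' t) t)
    (hf' : ∀ t ∈ Ioc α t0, HasDerivAt f' (g t) t)
    (hφpos : ∀ t ∈ Ioc α t0, 0 < φ t)
    (hgφ : ∀ t ∈ Ioc α t0, g t = φ t ^ (-q))
    (hconc : ConcaveOn ℝ (Ioc α t0) φ) :
    ∃ M, ∀ t ∈ Ioc α t0, |f t| ≤ M := by
  have hmem : ∀ s ∈ Ico (-t0) (-α), -s ∈ Ioc α t0 :=
    fun s hs => ⟨by linarith [hs.2], by linarith [hs.1]⟩
  have hc : ConcaveOn ℝ (Ico (-t0) (-α)) (fun s => φ (-s)) := by
    have h := hconc.comp_linearMap (-LinearMap.id : ℝ →ₗ[ℝ] ℝ)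
    have hset : (⇑(-LinearMap.id : ℝ →ₗ[ℝ] ℝ) ⁻¹' Ioc α t0) = Ico (-t0) (-α) := by
      ext s
      simp only [mem_preimage, LinearMap.neg_apply, LinearMap.id_coe, id_eq, mem_Ioc, mem_Ico]
      constructor
      · rintro ⟨h1, h2⟩
        exact ⟨by linarith, by linarith⟩
      · rintro ⟨h1, h2⟩
        exact ⟨by linarith, by linarith⟩
    rw [hset] at h
    exact h
  obtain ⟨M, hM⟩ := bounded_near_right_endpoint (f := fun s => f (-s))
    (f' := fun s => -f' (-s)) (g := fun s => g (-s)) (φ := fun s => φ (-s))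
    (t0 := -t0) (β := -α) (q := q) (by linarith) hq1 hq2
    (fun s hs => by
      have h := (hf (-s) (hmem s hs)).comp s (hasDerivAt_neg s)
      have e : f' (-s) * -1 = -f' (-s) := by ring
      rw [e] at h
      exact h)
    (fun s hs => by
      have h := ((hf' (-s) (hmem s hs)).comp s (hasDerivAt_neg s)).neg
      have e : -(g (-s) * -1) = g (-s) := by ring
      rw [e] at h
      exact h)
    (fun s hs => hφpos _ (hmem s hs))
    (fun s hs => hgφ _ (hmem s hs))
    hc
  refine ⟨M, fun t ht => ?_⟩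
  have h := hM (-t) ⟨by linarith [ht.2], by linarith [ht.1]⟩
  simp only [neg_neg] at h
  exact h

end Vale.Agent.Lib.P252
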