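import Mathlib

/-!
# One-variable lemmas for the separable affine Bernstein theorem
-/

namespace Vale.Agent.Lib.P252

open Set

/-- A positive function on the whole real line with nonpositive second derivative has
vanishing first derivative. -/
theorem deriv_eq_zero_of_pos_of_deriv2_nonpos {φ : ℝ → ℝ} (hd : Differentiable ℝ φ)
    (hd2 : Differentiable ℝ (deriv φ)) (hpos : ∀ t, 0 < φ t)
    (h2 : ∀ t, deriv (deriv φ) t ≤ 0) (t0 : ℝ) : deriv φ t0 = 0 := by
  have hanti : Antitone (deriv φ) := antitone_of_deriv_nonpos hd2 h2
  by_contra hne
  rcases lt_or_gt_of_ne hne with hlt | hgt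
  · -- negative slope: go to the right
    have hA : AntitoneOn (fun s => φ s - deriv φ t0 * s) (Ici t0) := by
      apply antitoneOn_of_deriv_nonpos (convex_Ici t0)
      · exact (hd.continuous.sub (continuous_const.mul continuous_id)).continuousOn
      · exact (hd.sub ((differentiable_const _).mul differentiable_id)).differentiableOn
      · intro s hs
        rw [interior_Ici] at hs
        have h1 : HasDerivAt (fun s => φ s - deriv φ t0 * s) (deriv φ s - deriv φ t0 * 1) s :=
          (hd s).hasDerivAt.sub ((hasDerivAt_id s).const_mul _)
        rw [h1.deriv]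
        have := hanti hs.le
        linarith
    have hm : 0 < -deriv φ t0 := by linarith
    set t := t0 + (φ t0 / (-deriv φ t0) + 1) with ht
    have hq : 0 < φ t0 / (-deriv φ t0) := div_pos (hpos t0) hm
    have htt : t0 ≤ t := by rw [ht]; linarith
    have h3 := hA (mem_Ici.mpr le_rfl) (mem_Ici.mpr htt) htt
    simp only at h3
    have h4 : deriv φ t0 * (t - t0) = -φ t0 + deriv φ t0 := by
      rw [ht]
      field_simp
      ring
    have := hpos t
    nlinarith
  · -- positive slope: go to the left
    have hA : MonotoneOn (fun s => φ s - deriv φ t0 * s) (Iic t0) := by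
      apply monotoneOn_of_deriv_nonneg (convex_Iic t0)
      · exact (hd.continuous.sub (continuous_const.mul continuous_id)).continuousOn
      · exact (hd.sub ((differentiable_const _).mul differentiable_id)).differentiableOn
      · intro s hs
        rw [interior_Iic] at hs
        have h1 : HasDerivAt (fun s => φ s - deriv φ t0 * s) (deriv φ s - deriv φ t0 * 1) s :=
          (hd s).hasDerivAt.sub ((hasDerivAt_id s).const_mul _)
        rw [h1.deriv]
        have := hanti hs.le
        linarith
    have hm : 0 < deriv φ t0 := hgt
    set t := t0 - (φ t0 / deriv φ t0 + 1) with ht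
    have hq : 0 < φ t0 / deriv φ t0 := div_pos (hpos t0) hm
    have htt : t ≤ t0 := by rw [ht]; linarith
    have h3 := hA (mem_Iic.mpr htt) (mem_Iic.mpr le_rfl) htt
    simp only at h3
    have h4 : deriv φ t0 * (t0 - t) = φ t0 + deriv φ t0 := by
      rw [ht]
      field_simp
      ring
    have := hpos t
    nlinarith

end Vale.Agent.Lib.P252

namespace Vale.Agent.Lib.P252

/-- A twice differentiable function on the real line with constant second derivative is a
quadratic polynomial. -/
theorem quadratic_of_deriv2_const {f : ℝ → ℝ} (hd : Differentiable ℝ f)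
    (hd2 : Differentiable ℝ (deriv f)) {γ : ℝ} (h : ∀ t, deriv (deriv f) t = γ) (t : ℝ) :
    f t = f 0 + deriv f 0 * t + γ / 2 * t ^ 2 := by
  have h1 : ∀ s, deriv f s = deriv f 0 + γ * s := by
    intro s
    have hD : Differentiable ℝ (fun s => deriv f s - γ * s) :=
      hd2.sub ((differentiable_const _).mul differentiable_id)
    have hz : ∀ s, deriv (fun s => deriv f s - γ * s) s = 0 := by
      intro s
      have h1 : HasDerivAt (fun s => deriv f s - γ * s) (deriv (deriv f) s - γ * 1) s :=
        (hd2 s).hasDerivAt.sub ((hasDerivAt_id s).const_mul _)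
      rw [h1.deriv, h s]
      ring
    have := is_const_of_deriv_eq_zero hD hz s 0
    linarith
  have hD : Differentiable ℝ (fun s => f s - (deriv f 0 * s + γ / 2 * s ^ 2)) :=
    hd.sub (((differentiable_const _).mul differentiable_id).add
      ((differentiable_const _).mul (differentiable_id.pow 2)))
  have hz : ∀ s, deriv (fun s => f s - (deriv f 0 * s + γ / 2 * s ^ 2)) s = 0 := by
    intro s
    have h2 : HasDerivAt (fun s => f s - (deriv f 0 * s + γ / 2 * s ^ 2))
        (deriv f s - (deriv f 0 * 1 + γ / 2 * (2 * s ^ (2 - 1) * 1))) s :=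
      (hd s).hasDerivAt.sub (((hasDerivAt_id s).const_mul _).add
        (((hasDerivAt_id s).pow 2).const_mul _))
    rw [h2.deriv, h1 s]
    ring
  have := is_const_of_deriv_eq_zero hD hz t 0
  norm_num at this
  linarith

end Vale.Agent.Lib.P252
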