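import Vale.Agent.Lib.P252.Sep3
import Vale.Agent.Lib.P252.OneDim

/-!
# Entire additively separable solutions of (AM) are quadratic
-/

namespace Vale.Agent.Lib.P252

open Filter Topology
open scoped ContDiff

variable {n : ℕ}

/-- if finitely many reals sum to zero and each nonpositive one vanishes, all vanish -/
theorem all_zero_of_sum_zero {ι : Type*} [Fintype ι] (c : ι → ℝ) (hsum : ∑ i, c i = 0)
    (h : ∀ i, c i ≤ 0 → c i = 0) : ∀ i, c i = 0 := by
  have hnn : ∀ i, 0 ≤ c i := by
    intro i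
    by_contra hneg
    have hneg' := not_le.mp hneg
    have := h i hneg'.le
    linarith
  intro i
  exact (Finset.sum_eq_zero_iff_of_nonneg (fun j _ => hnn j)).mp hsum i (Finset.mem_univ i)

theorem separable_entire_aux (u : (Fin n → ℝ) → ℝ) (hu : ContDiff ℝ ∞ u)
    (f : Fin n → ℝ → ℝ) (hsep : ∀ x, u x = ∑ i, f i (x i))
    (hpos : ∀ x, (hess u x).PosDef) (hAM : ∀ x, amOp u x = 0) :
    (∀ i, 0 < deriv (deriv (f i)) 0) ∧
      ∀ x, u x = ∑ i, (f i 0 + deriv (f i) 0 * x i + deriv (deriv (f i)) 0 / 2 * x i ^ 2) := by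
  have hΩ : IsOpen (Set.univ : Set (Fin n → ℝ)) := isOpen_univ
  have hsep' : ∀ x ∈ (Set.univ : Set (Fin n → ℝ)), u x = ∑ i, f i (x i) := fun x _ => hsep x
  have hpos' : ∀ x ∈ (Set.univ : Set (Fin n → ℝ)), (hess u x).PosDef := fun x _ => hpos x
  have hAM' : ∀ x ∈ (Set.univ : Set (Fin n → ℝ)), amOp u x = 0 := fun x _ => hAM x
  -- smoothness of the summands
  have hfs : ∀ i, ContDiff ℝ ∞ (f i) := by
    intro i
    have : f i = fun t => u (Function.update (0 : Fin n → ℝ) i t) - ∑ k ∈ Finset.univ.erase i, f k 0 := by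
      funext t
      rw [hsep, sum_update]
      simp
    rw [this]
    exact (hu.comp (contDiff_update ∞ (0 : Fin n → ℝ) i)).sub contDiff_const
  have hf1 : ∀ i, ContDiff ℝ ∞ (deriv (f i)) := fun i => (contDiff_infty_iff_deriv.mp (hfs i)).2
  have hf2 : ∀ i, ContDiff ℝ ∞ (deriv (deriv (f i))) :=
    fun i => (contDiff_infty_iff_deriv.mp (hf1 i)).2
  have hg : ∀ i t, 0 < deriv (deriv (f i)) t := by
    intro i t
    have := hess_diag_pos hΩ hsep' hpos' (Set.mem_univ (Function.update (0 : Fin n → ℝ) i t)) i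
    rwa [Function.update_self] at this
  -- the exponent
  set e : ℝ := -((n : ℝ) + 1) / ((n : ℝ) + 2) with he
  have hn2 : (0 : ℝ) < (n : ℝ) + 2 := by positivity
  have he0 : e ≠ 0 := by
    rw [he]
    have : (0 : ℝ) < (n : ℝ) + 1 := by positivity
    exact div_ne_zero (by linarith) hn2.ne'
  -- the functions φ i
  have hφs : ∀ i, ContDiff ℝ ∞ (fun t => deriv (deriv (f i)) t ^ e) :=
    fun i => (hf2 i).rpow_const_of_ne fun t => (hg i t).ne'
  have hφ1 : ∀ i, ContDiff ℝ ∞ (deriv (fun t => deriv (deriv (f i)) t ^ e)) :=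
    fun i => (contDiff_infty_iff_deriv.mp (hφs i)).2
  -- separation of variables
  have hψ : ∀ i t, sepPsi n (f i) t = sepPsi n (f i) 0 := by
    intro i t
    have h1 := sep_identity hΩ hsep' hpos' hAM' (Set.mem_univ (Function.update (0 : Fin n → ℝ) i t))
    have h2 := sep_identity hΩ hsep' hpos' hAM' (Set.mem_univ (0 : Fin n → ℝ))
    rw [sum_update (fun k t => sepPsi n (f k) t)] at h1
    rw [← Finset.add_sum_erase _ _ (Finset.mem_univ i)] at h2
    simp only [Pi.zero_apply] at h1 h2 ⊢
    linarith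
  have hsum : ∑ i, sepPsi n (f i) 0 = 0 := by
    have h2 := sep_identity hΩ hsep' hpos' hAM' (Set.mem_univ (0 : Fin n → ℝ))
    simpa using h2
  have hφ2 : ∀ i t, deriv (deriv (fun t => deriv (deriv (f i)) t ^ e)) t =
      sepPsi n (f i) 0 * deriv (deriv (f i)) t ^ (1 + e) := by
    intro i t
    have h1 := hψ i t
    have hp : 0 < deriv (deriv (f i)) t ^ (1 + e) := Real.rpow_pos_of_pos (hg i t) _
    rw [← h1]
    unfold sepPsi
    rw [← he]
    field_simp
  -- each nonpositive constant vanishes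
  have hzero : ∀ i, sepPsi n (f i) 0 ≤ 0 → sepPsi n (f i) 0 = 0 := by
    intro i hi
    have hd0 : ∀ t, deriv (fun t => deriv (deriv (f i)) t ^ e) t = 0 := by
      intro t
      apply deriv_eq_zero_of_pos_of_deriv2_nonpos ((hφs i).differentiable (by simp))
        ((hφ1 i).differentiable (by simp)) (fun t => Real.rpow_pos_of_pos (hg i t) _)
      intro s
      rw [hφ2 i s]
      exact mul_nonpos_of_nonpos_of_nonneg hi (Real.rpow_pos_of_pos (hg i s) _).le
    have h3 := hφ2 i 0
    have h4 : deriv (fun t => deriv (deriv (f i)) t ^ e) = fun _ => 0 := funext hd0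
    rw [h4, deriv_const] at h3
    have hp : 0 < deriv (deriv (f i)) 0 ^ (1 + e) := Real.rpow_pos_of_pos (hg i 0) _
    rcases mul_eq_zero.mp h3.symm with h5 | h5
    · exact h5
    · exact absurd h5 hp.ne'
  have hall := all_zero_of_sum_zero (fun i => sepPsi n (f i) 0) hsum hzero
  -- hence each g i is constant
  have hgconst : ∀ i t, deriv (deriv (f i)) t = deriv (deriv (f i)) 0 := by
    intro i t
    have hd0 : ∀ t, deriv (fun t => deriv (deriv (f i)) t ^ e) t = 0 := by
      intro t
      apply deriv_eq_zero_of_pos_of_deriv2_nonpos ((hφs i).differentiable (by simp))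
        ((hφ1 i).differentiable (by simp)) (fun t => Real.rpow_pos_of_pos (hg i t) _)
      intro s
      rw [hφ2 i s, hall i, zero_mul]
    have h6 := is_const_of_deriv_eq_zero ((hφs i).differentiable (by simp)) hd0 t 0
    exact Real.rpow_left_injOn he0 (hg i t).le (hg i 0).le h6
  refine ⟨fun i => hg i 0, fun x => ?_⟩
  rw [hsep x]
  apply Finset.sum_congr rfl
  intro i _
  exact quadratic_of_deriv2_const ((hfs i).differentiable (by simp))
    ((hf1 i).differentiable (by simp)) (fun t => hgconst i t) (x i)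

end Vale.Agent.Lib.P252
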