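import Mathlib

/-!
# A path along which `u` stays bounded cannot leave the domain of a closed graph
-/

namespace Vale.Agent.Lib.P252

open Set

theorem exit_lemma {E : Type*} [TopologicalSpace E] {Ω : Set E} (hΩ : IsOpen Ω) {u : E → ℝ}
    (hclosed : IsClosed {p : E × ℝ | p.1 ∈ Ω ∧ p.2 = u p.1})
    {γ : ℝ → E} (hγ : Continuous γ) (h0 : γ 0 ∈ Ω) {M : ℝ}
    (hM : ∀ s ∈ Ico (0 : ℝ) 1, γ s ∈ Ω → |u (γ s)| ≤ M) : γ 1 ∈ Ω := by
  by_contra h1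
  set T := {s ∈ Icc (0 : ℝ) 1 | γ s ∉ Ω} with hT
  have hTclosed : IsClosed T := by
    have : T = Icc (0 : ℝ) 1 ∩ γ ⁻¹' Ωᶜ := by
      ext s
      simp [hT]
    rw [this]
    exact isClosed_Icc.inter (hΩ.isClosed_compl.preimage hγ)
  have hTne : T.Nonempty := ⟨1, ⟨by norm_num, by norm_num⟩, h1⟩
  have hTbdd : BddBelow T := ⟨0, fun s hs => hs.1.1⟩
  set s' := sInf T with hs'
  have hs'mem : s' ∈ T := hTclosed.csInf_mem hTne hTbdd
  have hs'pos : 0 < s' := by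
    rcases hs'mem.1.1.lt_or_eq with h | h
    · exact h
    · exfalso
      apply hs'mem.2
      rw [← h]
      exact h0
  have hbefore : ∀ s ∈ Ico 0 s', γ s ∈ Ω := by
    intro s hs
    by_contra hn
    have hsT : s ∈ T := ⟨⟨hs.1, hs.2.le.trans hs'mem.1.2⟩, hn⟩
    have := csInf_le hTbdd hsT
    linarith [hs.2]
  have hcont : Continuous (fun p : ℝ × ℝ => (γ p.1, p.2)) :=
    (hγ.comp continuous_fst).prodMk continuous_snd
  set K := (Icc (0 : ℝ) s' ×ˢ Icc (-M) M) ∩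
    (fun p : ℝ × ℝ => (γ p.1, p.2)) ⁻¹' {p : E × ℝ | p.1 ∈ Ω ∧ p.2 = u p.1} with hK
  have hKc : IsCompact K :=
    (isCompact_Icc.prod isCompact_Icc).inter_right (hclosed.preimage hcont)
  have hS : IsClosed (Prod.fst '' K) := (hKc.image continuous_fst).isClosed
  have hsub : Ico 0 s' ⊆ Prod.fst '' K := by
    intro s hs
    have hΩs := hbefore s hs
    have hb := hM s ⟨hs.1, lt_of_lt_of_le hs.2 hs'mem.1.2⟩ hΩs
    exact ⟨(s, u (γ s)), ⟨⟨⟨hs.1, hs.2.le⟩, abs_le.mp hb⟩, ⟨hΩs, rfl⟩⟩, rfl⟩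
  have hmem : s' ∈ Prod.fst '' K := by
    have hcl : closure (Ico 0 s') ⊆ Prod.fst '' K := hS.closure_subset_iff.mpr hsub
    apply hcl
    rw [closure_Ico hs'pos.ne]
    exact ⟨hs'pos.le, le_rfl⟩
  obtain ⟨⟨s, y⟩, hp, rfl⟩ := hmem
  exact hs'mem.2 hp.2.1

end Vale.Agent.Lib.P252
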