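import Vale.Agent.Lib.P252.Proj
import Vale.Agent.Lib.P252.Endpoint
import Vale.Agent.Lib.P252.Exit
import Vale.Agent.Lib.P252.Entire

/-!
# Additively separable solutions of (AM) with closed graph over a convex domain
-/

namespace Vale.Agent.Lib.P252

open Filter Topology Set
open scoped ContDiff

variable {n : ℕ}

/-- one-variable rigidity on the whole line -/
theorem oneDim_rigidity {F : ℝ → ℝ} (hF : ContDiff ℝ ∞ F)
    (hg : ∀ t, 0 < deriv (deriv F) t) {c : ℝ} (hc : c ≤ 0)
    (hψ : ∀ t, sepPsi n F t = c) :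
    c = 0 ∧ ∀ t, deriv (deriv F) t = deriv (deriv F) 0 := by
  have hf1 : ContDiff ℝ ∞ (deriv F) := (contDiff_infty_iff_deriv.mp hF).2
  have hf2 : ContDiff ℝ ∞ (deriv (deriv F)) := (contDiff_infty_iff_deriv.mp hf1).2
  set e : ℝ := -((n : ℝ) + 1) / ((n : ℝ) + 2) with he
  have hn2 : (0 : ℝ) < (n : ℝ) + 2 := by positivity
  have he0 : e ≠ 0 := by
    rw [he]
    have : (0 : ℝ) < (n : ℝ) + 1 := by positivity
    exact div_ne_zero (by linarith) hn2.ne'
  have hφs : ContDiff ℝ ∞ (fun t => deriv (deriv F) t ^ e) :=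
    hf2.rpow_const_of_ne fun t => (hg t).ne'
  have hφ1 : ContDiff ℝ ∞ (deriv (fun t => deriv (deriv F) t ^ e)) :=
    (contDiff_infty_iff_deriv.mp hφs).2
  have hφ2 : ∀ t, deriv (deriv (fun t => deriv (deriv F) t ^ e)) t =
      c * deriv (deriv F) t ^ (1 + e) := by
    intro t
    have h1 := hψ t
    have hp : 0 < deriv (deriv F) t ^ (1 + e) := Real.rpow_pos_of_pos (hg t) _
    rw [← h1]
    unfold sepPsi
    rw [← he]
    field_simp
  have hd0 : ∀ t, deriv (fun t => deriv (deriv F) t ^ e) t = 0 := by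
    intro t
    apply deriv_eq_zero_of_pos_of_deriv2_nonpos (hφs.differentiable (by simp))
      (hφ1.differentiable (by simp)) (fun t => Real.rpow_pos_of_pos (hg t) _)
    intro s
    rw [hφ2 s]
    exact mul_nonpos_of_nonpos_of_nonneg hc (Real.rpow_pos_of_pos (hg s) _).le
  constructor
  · have h3 := hφ2 0
    have h4 : deriv (fun t => deriv (deriv F) t ^ e) = fun _ => 0 := funext hd0
    rw [h4, deriv_const] at h3
    have hp : 0 < deriv (deriv F) 0 ^ (1 + e) := Real.rpow_pos_of_pos (hg 0) _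
    rcases mul_eq_zero.mp h3.symm with h5 | h5
    · exact h5
    · exact absurd h5 hp.ne'
  · intro t
    have h6 := is_const_of_deriv_eq_zero (hφs.differentiable (by simp)) hd0 t 0
    exact Real.rpow_left_injOn he0 (hg t).le (hg 0).le h6

section sep

variable {Ω : Set (Fin n → ℝ)} {u : (Fin n → ℝ) → ℝ} {f : Fin n → ℝ → ℝ}

/-- If the separation constant of the `i`-th coordinate is nonpositive, the projection of the
domain to the `i`-th axis is the whole line. -/
theorem coord_univ (hΩ : IsOpen Ω) (hconv : Convex ℝ Ω)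
    (hu : ContDiffOn ℝ ∞ u Ω) (hsep : ∀ x ∈ Ω, u x = ∑ i, f i (x i))
    (hpos : ∀ x ∈ Ω, (hess u x).PosDef) (hAM : ∀ x ∈ Ω, amOp u x = 0)
    (hclosed : IsClosed {p : (Fin n → ℝ) × ℝ | p.1 ∈ Ω ∧ p.2 = u p.1})
    (i : Fin n) {x0 : Fin n → ℝ} (hx0 : x0 ∈ Ω) (hc : sepPsi n (f i) (x0 i) ≤ 0) :
    coordProj i Ω = univ := by
  have ht0 : x0 i ∈ coordProj i Ω := ⟨x0, hx0, rfl⟩
  have hIo := coordProj_isOpen hΩ i
  have hIc := (coordProj_isPreconnected hconv i).ordConnected
  have hn : 0 < n := i.pos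
  have hnR : (0 : ℝ) < (n : ℝ) := by exact_mod_cast hn
  set e : ℝ := -((n : ℝ) + 1) / ((n : ℝ) + 2) with he
  set q : ℝ := ((n : ℝ) + 2) / ((n : ℝ) + 1) with hq
  have hq1 : 1 < q := by
    rw [hq, lt_div_iff₀ (by linarith)]
    linarith
  have hq2 : q < 2 := by
    rw [hq, div_lt_iff₀ (by linarith)]
    linarith
  have heq : e * (-q) = 1 := by
    rw [he, hq]
    field_simp
  -- regularity
  have hfC := summand_contDiffOn hΩ hu hsep i
  have hf1C : ContDiffOn ℝ ∞ (deriv (f i)) (coordProj i Ω) :=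
    hfC.deriv_of_isOpen hIo (by simp)
  have hf2C : ContDiffOn ℝ ∞ (deriv (deriv (f i))) (coordProj i Ω) :=
    hf1C.deriv_of_isOpen hIo (by simp)
  have hgpos : ∀ t ∈ coordProj i Ω, 0 < deriv (deriv (f i)) t :=
    fun t ht => summand_deriv2_pos hΩ hsep hpos i ht
  have hφC : ContDiffOn ℝ ∞ (fun t => deriv (deriv (f i)) t ^ e) (coordProj i Ω) :=
    hf2C.rpow_const_of_ne fun t ht => (hgpos t ht).ne'
  have hφ1C : ContDiffOn ℝ ∞ (deriv (fun t => deriv (deriv (f i)) t ^ e)) (coordProj i Ω) :=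
    hφC.deriv_of_isOpen hIo (by simp)
  have hD : ∀ {F : ℝ → ℝ}, ContDiffOn ℝ ∞ F (coordProj i Ω) →
      ∀ t ∈ coordProj i Ω, HasDerivAt F (deriv F t) t := by
    intro F hF t ht
    exact ((hF.differentiableOn (by simp)).differentiableAt (hIo.mem_nhds ht)).hasDerivAt
  have hφ2 : ∀ t ∈ coordProj i Ω,
      deriv (deriv (fun t => deriv (deriv (f i)) t ^ e)) t ≤ 0 := by
    intro t ht
    have h1 := sepPsi_const hΩ hconv hsep hpos hAM i ht ht0
    have hp : 0 < deriv (deriv (f i)) t ^ (1 + e) := Real.rpow_pos_of_pos (hgpos t ht) _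
    have h2 : deriv (deriv (fun t => deriv (deriv (f i)) t ^ e)) t =
        sepPsi n (f i) t * deriv (deriv (f i)) t ^ (1 + e) := by
      unfold sepPsi
      rw [← he]
      field_simp
    rw [h2, h1]
    exact mul_nonpos_of_nonpos_of_nonneg hc hp.le
  have hconcI : ConcaveOn ℝ (coordProj i Ω) (fun t => deriv (deriv (f i)) t ^ e) := by
    apply concaveOn_of_deriv2_nonpos hIc.convex hφC.continuousOn
    · rw [hIo.interior_eq]
      exact hφC.differentiableOn (by simp)
    · rw [hIo.interior_eq]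
      exact hφ1C.differentiableOn (by simp)
    · rw [hIo.interior_eq]
      exact hφ2
  have hgφ : ∀ t ∈ coordProj i Ω,
      deriv (deriv (f i)) t = (deriv (deriv (f i)) t ^ e) ^ (-q) := by
    intro t ht
    rw [← Real.rpow_mul (hgpos t ht).le, heq, Real.rpow_one]
  -- not bounded above
  have hnotA : ¬ BddAbove (coordProj i Ω) := by
    intro hb
    set β := sSup (coordProj i Ω) with hβ
    have hβnot : β ∉ coordProj i Ω := by
      intro hmem
      obtain ⟨l, r, hlr, hsub⟩ := mem_nhds_iff_exists_Ioo_subset.mp (hIo.mem_nhds hmem)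
      have h1 : (β + r) / 2 ∈ coordProj i Ω :=
        hsub ⟨by linarith [hlr.1, hlr.2], by linarith [hlr.2]⟩
      have := le_csSup hb h1
      linarith [hlr.2]
    have ht0β : x0 i < β :=
      lt_of_le_of_ne (le_csSup hb ht0) (fun h => hβnot (h ▸ ht0))
    have hsubI : Ico (x0 i) β ⊆ coordProj i Ω := by
      intro t ht
      obtain ⟨b, hb1, hb2⟩ := exists_lt_of_lt_csSup ⟨x0 i, ht0⟩ ht.2
      exact hIc.out ht0 hb1 ⟨ht.1, hb2.le⟩
    obtain ⟨M, hM⟩ := bounded_near_right_endpoint ht0β hq1 hq2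
      (fun t ht => hD hfC t (hsubI ht)) (fun t ht => hD hf1C t (hsubI ht))
      (fun t ht => Real.rpow_pos_of_pos (hgpos t (hsubI ht)) _)
      (fun t ht => hgφ t (hsubI ht))
      (hconcI.subset hsubI (convex_Ico (x0 i) β))
    have hγ : Continuous (fun s : ℝ => Function.update x0 i (x0 i + s * (β - x0 i))) :=
      continuous_const.update i (by fun_prop)
    have hγ0 : Function.update x0 i (x0 i + 0 * (β - x0 i)) ∈ Ω := by
      rw [zero_mul, add_zero, Function.update_eq_self]
      exact hx0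
    have hexit := exit_lemma hΩ hclosed hγ hγ0
      (M := M + |∑ k ∈ Finset.univ.erase i, f k (x0 k)|) (by
        intro s hs hmem
        rw [hsep _ hmem, sum_update]
        have hts : x0 i + s * (β - x0 i) ∈ Ico (x0 i) β :=
          ⟨by nlinarith [hs.1], by nlinarith [hs.2]⟩
        have h1 := hM _ hts
        have h2 := abs_add_le (f i (x0 i + s * (β - x0 i)))
          (∑ k ∈ Finset.univ.erase i, f k (x0 k))
        linarith)
    apply hβnot
    refine ⟨_, hexit, ?_⟩
    simp
  -- not bounded below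
  have hnotB : ¬ BddBelow (coordProj i Ω) := by
    intro hb
    set α := sInf (coordProj i Ω) with hα
    have hαnot : α ∉ coordProj i Ω := by
      intro hmem
      obtain ⟨l, r, hlr, hsub⟩ := mem_nhds_iff_exists_Ioo_subset.mp (hIo.mem_nhds hmem)
      have h1 : (α + l) / 2 ∈ coordProj i Ω :=
        hsub ⟨by linarith [hlr.1], by linarith [hlr.1, hlr.2]⟩
      have := csInf_le hb h1
      linarith [hlr.1]
    have ht0α : α < x0 i :=
      lt_of_le_of_ne (csInf_le hb ht0) (fun h => hαnot (h.symm ▸ ht0))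
    have hsubI : Ioc α (x0 i) ⊆ coordProj i Ω := by
      intro t ht
      obtain ⟨b, hb1, hb2⟩ := exists_lt_of_csInf_lt ⟨x0 i, ht0⟩ ht.1
      exact hIc.out hb1 ht0 ⟨hb2.le, ht.2⟩
    obtain ⟨M, hM⟩ := bounded_near_left_endpoint ht0α hq1 hq2
      (fun t ht => hD hfC t (hsubI ht)) (fun t ht => hD hf1C t (hsubI ht))
      (fun t ht => Real.rpow_pos_of_pos (hgpos t (hsubI ht)) _)
      (fun t ht => hgφ t (hsubI ht))
      (hconcI.subset hsubI (convex_Ioc α (x0 i)))
    have hγ : Continuous (fun s : ℝ => Function.update x0 i (x0 i + s * (α - x0 i))) :=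
      continuous_const.update i (by fun_prop)
    have hγ0 : Function.update x0 i (x0 i + 0 * (α - x0 i)) ∈ Ω := by
      rw [zero_mul, add_zero, Function.update_eq_self]
      exact hx0
    have hexit := exit_lemma hΩ hclosed hγ hγ0
      (M := M + |∑ k ∈ Finset.univ.erase i, f k (x0 k)|) (by
        intro s hs hmem
        rw [hsep _ hmem, sum_update]
        have hts : x0 i + s * (α - x0 i) ∈ Ioc α (x0 i) :=
          ⟨by nlinarith [hs.2], by nlinarith [hs.1]⟩
        have h1 := hM _ hts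
        have h2 := abs_add_le (f i (x0 i + s * (α - x0 i)))
          (∑ k ∈ Finset.univ.erase i, f k (x0 k))
        linarith)
    apply hαnot
    refine ⟨_, hexit, ?_⟩
    simp
  ext t
  simp only [mem_univ, iff_true]
  obtain ⟨a, ha, hat⟩ := not_bddBelow_iff.mp hnotB t
  obtain ⟨b, hb, hbt⟩ := not_bddAbove_iff.mp hnotA t
  exact hIc.out ha hb ⟨hat.le, hbt.le⟩

end sep

end Vale.Agent.Lib.P252
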