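import Vale.Agent.Lib.P252.Complete

/-!
# Additively separable solutions of (AM) with closed graph: the main statement
-/

namespace Vale.Agent.Lib.P252

open Filter Topology Set
open scoped ContDiff

variable {n : ℕ}

theorem separable_complete_aux {Ω : Set (Fin n → ℝ)} {u : (Fin n → ℝ) → ℝ}
    {f : Fin n → ℝ → ℝ} (hΩ : IsOpen Ω) (hconv : Convex ℝ Ω) (hne : Ω.Nonempty)
    (hu : ContDiffOn ℝ ∞ u Ω) (hsep : ∀ x ∈ Ω, u x = ∑ i, f i (x i))
    (hpos : ∀ x ∈ Ω, (hess u x).PosDef) (hAM : ∀ x ∈ Ω, amOp u x = 0)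
    (hclosed : IsClosed {p : (Fin n → ℝ) × ℝ | p.1 ∈ Ω ∧ p.2 = u p.1}) :
    Ω = univ ∧ (∀ i, 0 < deriv (deriv (f i)) 0) ∧
      ∀ x, u x = ∑ i, (f i 0 + deriv (f i) 0 * x i + deriv (deriv (f i)) 0 / 2 * x i ^ 2) := by
  obtain ⟨x0, hx0⟩ := hne
  have hsum : ∑ i, sepPsi n (f i) (x0 i) = 0 := sep_identity hΩ hsep hpos hAM hx0
  have hkey : ∀ i, sepPsi n (f i) (x0 i) ≤ 0 →
      coordProj i Ω = univ ∧ sepPsi n (f i) (x0 i) = 0 ∧
        ∀ t, deriv (deriv (f i)) t = deriv (deriv (f i)) 0 := by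
    intro i hi
    have hIu := coord_univ hΩ hconv hu hsep hpos hAM hclosed i hx0 hi
    have hfC : ContDiff ℝ ∞ (f i) := by
      have h := summand_contDiffOn hΩ hu hsep i
      rw [hIu] at h
      exact contDiffOn_univ.mp h
    have hg : ∀ t, 0 < deriv (deriv (f i)) t := fun t =>
      summand_deriv2_pos hΩ hsep hpos i (by rw [hIu]; exact mem_univ t)
    have hψ : ∀ t, sepPsi n (f i) t = sepPsi n (f i) (x0 i) := fun t =>
      sepPsi_const hΩ hconv hsep hpos hAM i (by rw [hIu]; exact mem_univ t) ⟨x0, hx0, rfl⟩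
    obtain ⟨h1, h2⟩ := oneDim_rigidity hfC hg hi hψ
    exact ⟨hIu, h1, h2⟩
  have hall := all_zero_of_sum_zero (fun i => sepPsi n (f i) (x0 i)) hsum
    (fun i hi => (hkey i hi).2.1)
  have hI : ∀ i, coordProj i Ω = univ := fun i => (hkey i (hall i).le).1
  have hg : ∀ i t, deriv (deriv (f i)) t = deriv (deriv (f i)) 0 :=
    fun i => (hkey i (hall i).le).2.2
  have hfq : ∀ i t, f i t = f i 0 + deriv (f i) 0 * t + deriv (deriv (f i)) 0 / 2 * t ^ 2 := by
    intro i t
    have hfC : ContDiff ℝ ∞ (f i) := by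
      have h := summand_contDiffOn hΩ hu hsep i
      rw [hI i] at h
      exact contDiffOn_univ.mp h
    have hf1 : ContDiff ℝ ∞ (deriv (f i)) := (contDiff_infty_iff_deriv.mp hfC).2
    exact quadratic_of_deriv2_const (hfC.differentiable (by simp))
      (hf1.differentiable (by simp)) (fun t => hg i t) t
  have hΩu : Ω = univ := by
    have hpre : Ω = (fun x : Fin n → ℝ => (x, ∑ i, (f i 0 + deriv (f i) 0 * x i +
        deriv (deriv (f i)) 0 / 2 * x i ^ 2))) ⁻¹'
        {p : (Fin n → ℝ) × ℝ | p.1 ∈ Ω ∧ p.2 = u p.1} := by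
      ext x
      simp only [mem_preimage, Set.mem_ofPred_eq]
      constructor
      · intro hx
        refine ⟨hx, ?_⟩
        rw [hsep x hx]
        exact Finset.sum_congr rfl fun i _ => (hfq i (x i)).symm
      · exact fun h => h.1
    have hcl : IsClosed Ω := by
      rw [hpre]
      exact hclosed.preimage (by fun_prop)
    exact IsClopen.eq_univ ⟨hcl, hΩ⟩ ⟨x0, hx0⟩
  refine ⟨hΩu, fun i => ?_, fun x => ?_⟩
  · exact summand_deriv2_pos hΩ hsep hpos i (by rw [hI i]; exact mem_univ 0)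
  · rw [hsep x (by rw [hΩu]; exact mem_univ x)]
    exact Finset.sum_congr rfl fun i _ => hfq i (x i)

end Vale.Agent.Lib.P252
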