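import Mathlib

/-!
# Affine maximal equation: definitions

Coordinates on `ℝⁿ` are functions `Fin n → ℝ`.
-/

namespace Vale.Agent.Lib.P252

/-- The coordinate derivative `∂u/∂xᵢ` at `x`: the derivative at `t = x i` of the
one-variable function `t ↦ u (x with its i-th coordinate replaced by t)`. -/
noncomputable def pderiv {n : ℕ} (i : Fin n) (u : (Fin n → ℝ) → ℝ) (x : Fin n → ℝ) : ℝ :=
  deriv (fun t : ℝ => u (Function.update x i t)) (x i)

/-- The Hessian matrix `D²u(x)`, with entries `∂ᵢ∂ⱼu(x)`. -/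
noncomputable def hess {n : ℕ} (u : (Fin n → ℝ) → ℝ) (x : Fin n → ℝ) :
    Matrix (Fin n) (Fin n) ℝ :=
  Matrix.of fun i j => pderiv i (pderiv j u) x

/-- The function `w = (det D²u)^(-(n+1)/(n+2))`. -/
noncomputable def amW {n : ℕ} (u : (Fin n → ℝ) → ℝ) (x : Fin n → ℝ) : ℝ :=
  (hess u x).det ^ (-((n : ℝ) + 1) / ((n : ℝ) + 2))

/-- The left-hand side `∑ᵢⱼ Uⁱʲ ∂ᵢⱼ w` of the affine maximal equation (AM), where
`U = det(D²u) (D²u)⁻¹` is the cofactor matrix of the Hessian. -/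
noncomputable def amOp {n : ℕ} (u : (Fin n → ℝ) → ℝ) (x : Fin n → ℝ) : ℝ :=
  ∑ i, ∑ j, ((hess u x).det • (hess u x)⁻¹) i j * pderiv i (pderiv j (amW u)) x

end Vale.Agent.Lib.P252
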