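import Vale.Agent.Lib.P252.Sep3

/-!
# Coordinate projections of the domain and regularity of the summands
-/

namespace Vale.Agent.Lib.P252

open Filter Topology Set
open scoped ContDiff

variable {n : ℕ}

/-- the projection of `Ω` to the `i`-th coordinate axis -/
def coordProj (i : Fin n) (Ω : Set (Fin n → ℝ)) : Set ℝ := (fun x : Fin n → ℝ => x i) '' Ω

section sep

variable {Ω : Set (Fin n → ℝ)} {u : (Fin n → ℝ) → ℝ} {f : Fin n → ℝ → ℝ}

theorem coordProj_isOpen (hΩ : IsOpen Ω) (i : Fin n) : IsOpen (coordProj i Ω) := by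
  rw [isOpen_iff_mem_nhds]
  rintro t ⟨x, hx, rfl⟩
  filter_upwards [eventually_update_mem hΩ hx i] with s hs
  exact ⟨Function.update x i s, hs, Function.update_self i s x⟩

theorem coordProj_isPreconnected (hconv : Convex ℝ Ω) (i : Fin n) :
    IsPreconnected (coordProj i Ω) :=
  hconv.isPreconnected.image _ (continuous_apply i).continuousOn

theorem summand_contDiffOn (hΩ : IsOpen Ω) (hu : ContDiffOn ℝ ∞ u Ω)
    (hsep : ∀ x ∈ Ω, u x = ∑ i, f i (x i)) (i : Fin n) :
    ContDiffOn ℝ ∞ (f i) (coordProj i Ω) := by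
  rintro t ⟨x, hx, rfl⟩
  apply ContDiffAt.contDiffWithinAt
  have h1 : f i =ᶠ[𝓝 (x i)]
      fun s => u (Function.update x i s) - ∑ k ∈ Finset.univ.erase i, f k (x k) := by
    filter_upwards [eventually_update_mem hΩ hx i] with s hs
    rw [hsep _ hs, sum_update]
    ring
  have h2 : ContDiffAt ℝ ∞ u (Function.update x i (x i)) := by
    rw [Function.update_eq_self]
    exact hu.contDiffAt (hΩ.mem_nhds hx)
  have h3 : ContDiffAt ℝ ∞ (fun s : ℝ => u (Function.update x i s)) (x i) :=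
    h2.comp (x i) (contDiff_update ∞ x i).contDiffAt
  exact (h3.sub contDiffAt_const).congr_of_eventuallyEq h1

theorem summand_deriv2_pos (hΩ : IsOpen Ω) (hsep : ∀ x ∈ Ω, u x = ∑ i, f i (x i))
    (hpos : ∀ x ∈ Ω, (hess u x).PosDef) (i : Fin n) {t : ℝ} (ht : t ∈ coordProj i Ω) :
    0 < deriv (deriv (f i)) t := by
  obtain ⟨x, hx, rfl⟩ := ht
  exact hess_diag_pos hΩ hsep hpos hx i

theorem sepPsi_const (hΩ : IsOpen Ω) (hconv : Convex ℝ Ω)
    (hsep : ∀ x ∈ Ω, u x = ∑ i, f i (x i))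
    (hpos : ∀ x ∈ Ω, (hess u x).PosDef) (hAM : ∀ x ∈ Ω, amOp u x = 0) (i : Fin n)
    {s t : ℝ} (hs : s ∈ coordProj i Ω) (ht : t ∈ coordProj i Ω) :
    sepPsi n (f i) s = sepPsi n (f i) t := by
  have hloc : ∀ r ∈ coordProj i Ω, sepPsi n (f i) =ᶠ[𝓝 r] fun _ => sepPsi n (f i) r := by
    rintro r ⟨x, hx, rfl⟩
    exact sepPsi_eventually_const hΩ hsep hpos hAM hx i
  apply IsOpen.is_const_of_deriv_eq_zero (coordProj_isOpen hΩ i)
    (coordProj_isPreconnected hconv i) _ _ hs ht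
  · intro r hr
    exact ((differentiableAt_const _).congr_of_eventuallyEq (hloc r hr)).differentiableWithinAt
  · intro r hr
    rw [(hloc r hr).deriv_eq, deriv_const]
    rfl

end sep

end Vale.Agent.Lib.P252
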