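import Vale.Agent.Lib.P252.Defs

/-!
# Additively separable functions: reduction of (AM) to one-variable identities
-/

namespace Vale.Agent.Lib.P252

open Filter Topology

variable {n : ℕ}

theorem eventually_update_mem {Ω : Set (Fin n → ℝ)} (hΩ : IsOpen Ω) {x : Fin n → ℝ}
    (hx : x ∈ Ω) (i : Fin n) : ∀ᶠ t in 𝓝 (x i), Function.update x i t ∈ Ω := by
  have hc : Continuous (fun t : ℝ => Function.update x i t) :=
    continuous_const.update i continuous_id
  have h2 : Function.update x i (x i) ∈ Ω := by rw [Function.update_eq_self]; exact hx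
  exact hc.continuousAt.eventually (hΩ.mem_nhds h2)

theorem sum_update (F : Fin n → ℝ → ℝ) (x : Fin n → ℝ) (i : Fin n) (t : ℝ) :
    ∑ j, F j (Function.update x i t j) = F i t + ∑ j ∈ Finset.univ.erase i, F j (x j) := by
  rw [← Finset.add_sum_erase _ _ (Finset.mem_univ i)]
  congr 1
  · rw [Function.update_self]
  · apply Finset.sum_congr rfl
    intro j hj
    rw [Function.update_of_ne (Finset.ne_of_mem_erase hj)]

theorem prod_update (F : Fin n → ℝ → ℝ) (x : Fin n → ℝ) (i : Fin n) (t : ℝ) :
    ∏ j, F j (Function.update x i t j) = F i t * ∏ j ∈ Finset.univ.erase i, F j (x j) := by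
  rw [← Finset.mul_prod_erase _ _ (Finset.mem_univ i)]
  congr 1
  · rw [Function.update_self]
  · apply Finset.prod_congr rfl
    intro j hj
    rw [Function.update_of_ne (Finset.ne_of_mem_erase hj)]

section sep

variable {Ω : Set (Fin n → ℝ)} {u : (Fin n → ℝ) → ℝ} {f : Fin n → ℝ → ℝ}

/-- first coordinate derivatives of a separable function -/
theorem pderiv_sep (hΩ : IsOpen Ω) (hsep : ∀ x ∈ Ω, u x = ∑ i, f i (x i))
    {x : Fin n → ℝ} (hx : x ∈ Ω) (j : Fin n) :
    pderiv j u x = deriv (f j) (x j) := by
  unfold pderiv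
  have h1 : (fun t : ℝ => u (Function.update x j t)) =ᶠ[𝓝 (x j)]
      fun t => f j t + ∑ k ∈ Finset.univ.erase j, f k (x k) := by
    filter_upwards [eventually_update_mem hΩ hx j] with t ht
    rw [hsep _ ht, sum_update]
  rw [h1.deriv_eq, deriv_add_const]

/-- second coordinate derivatives of a separable function -/
theorem pderiv_pderiv_sep (hΩ : IsOpen Ω) (hsep : ∀ x ∈ Ω, u x = ∑ i, f i (x i))
    {x : Fin n → ℝ} (hx : x ∈ Ω) (i j : Fin n) :
    pderiv i (pderiv j u) x = if i = j then deriv (deriv (f i)) (x i) else 0 := by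
  unfold pderiv
  have h1 : (fun t : ℝ => deriv (fun s : ℝ => u (Function.update (Function.update x i t) j s))
        (Function.update x i t j)) =ᶠ[𝓝 (x i)]
      fun t => deriv (f j) (Function.update x i t j) := by
    filter_upwards [eventually_update_mem hΩ hx i] with t ht
    exact pderiv_sep hΩ hsep ht j
  rw [h1.deriv_eq]
  by_cases hij : i = j
  · subst hij
    simp only [Function.update_self, if_true]
  · rw [if_neg hij]
    have : (fun t : ℝ => deriv (f j) (Function.update x i t j)) = fun _ => deriv (f j) (x j) := by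
      funext t
      rw [Function.update_of_ne (Ne.symm hij)]
    rw [this, deriv_const]

theorem hess_sep (hΩ : IsOpen Ω) (hsep : ∀ x ∈ Ω, u x = ∑ i, f i (x i))
    {x : Fin n → ℝ} (hx : x ∈ Ω) :
    hess u x = Matrix.diagonal fun i => deriv (deriv (f i)) (x i) := by
  ext i j
  rw [hess, Matrix.of_apply, pderiv_pderiv_sep hΩ hsep hx, Matrix.diagonal_apply]

end sep

end Vale.Agent.Lib.P252
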