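import Vale.Agent.Lib.P252.Sep1

/-!
# Additively separable functions: the affine maximal operator
-/

namespace Vale.Agent.Lib.P252

open Filter Topology

variable {n : ℕ}

section sep

variable {Ω : Set (Fin n → ℝ)} {u : (Fin n → ℝ) → ℝ} {f : Fin n → ℝ → ℝ}

theorem hess_diag_pos (hΩ : IsOpen Ω) (hsep : ∀ x ∈ Ω, u x = ∑ i, f i (x i))
    (hpos : ∀ x ∈ Ω, (hess u x).PosDef) {x : Fin n → ℝ} (hx : x ∈ Ω) (i : Fin n) :
    0 < deriv (deriv (f i)) (x i) := by
  have h := (hpos x hx).diag_pos (i := i)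
  rw [hess_sep hΩ hsep hx, Matrix.diagonal_apply_eq] at h
  exact h

theorem amW_sep (hΩ : IsOpen Ω) (hsep : ∀ x ∈ Ω, u x = ∑ i, f i (x i))
    {x : Fin n → ℝ} (hx : x ∈ Ω) :
    amW u x = (∏ k, deriv (deriv (f k)) (x k)) ^ (-((n : ℝ) + 1) / ((n : ℝ) + 2)) := by
  rw [amW, hess_sep hΩ hsep hx, Matrix.det_diagonal]

theorem pderiv_pderiv_amW_sep (hΩ : IsOpen Ω) (hsep : ∀ x ∈ Ω, u x = ∑ i, f i (x i))
    (hpos : ∀ x ∈ Ω, (hess u x).PosDef) {x : Fin n → ℝ} (hx : x ∈ Ω) (i : Fin n) :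
    pderiv i (pderiv i (amW u)) x =
      deriv (deriv (fun t => deriv (deriv (f i)) t ^ (-((n : ℝ) + 1) / ((n : ℝ) + 2)))) (x i) *
        (∏ k ∈ Finset.univ.erase i, deriv (deriv (f k)) (x k)) ^
          (-((n : ℝ) + 1) / ((n : ℝ) + 2)) := by
  have h0 : pderiv i (pderiv i (amW u)) x =
      deriv (deriv (fun t : ℝ => amW u (Function.update x i t))) (x i) := by
    unfold pderiv
    congr 1
    funext s
    simp only [Function.update_idem, Function.update_self]
  rw [h0]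
  have hC : 0 ≤ ∏ k ∈ Finset.univ.erase i, deriv (deriv (f k)) (x k) :=
    Finset.prod_nonneg fun k _ => (hess_diag_pos hΩ hsep hpos hx k).le
  have h1 : (fun t : ℝ => amW u (Function.update x i t)) =ᶠ[𝓝 (x i)]
      fun t => deriv (deriv (f i)) t ^ (-((n : ℝ) + 1) / ((n : ℝ) + 2)) *
        (∏ k ∈ Finset.univ.erase i, deriv (deriv (f k)) (x k)) ^
          (-((n : ℝ) + 1) / ((n : ℝ) + 2)) := by
    filter_upwards [eventually_update_mem hΩ hx i] with t ht
    rw [amW_sep hΩ hsep ht, prod_update (fun k s => deriv (deriv (f k)) s)]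
    have hg : 0 ≤ deriv (deriv (f i)) t := by
      have := hess_diag_pos hΩ hsep hpos ht i
      rw [Function.update_self] at this
      exact this.le
    rw [Real.mul_rpow hg hC]
  rw [h1.deriv.deriv_eq]
  have h2 : deriv (fun t => deriv (deriv (f i)) t ^ (-((n : ℝ) + 1) / ((n : ℝ) + 2)) *
        (∏ k ∈ Finset.univ.erase i, deriv (deriv (f k)) (x k)) ^
          (-((n : ℝ) + 1) / ((n : ℝ) + 2))) =
      fun t => deriv (fun t => deriv (deriv (f i)) t ^ (-((n : ℝ) + 1) / ((n : ℝ) + 2))) t *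
        (∏ k ∈ Finset.univ.erase i, deriv (deriv (f k)) (x k)) ^
          (-((n : ℝ) + 1) / ((n : ℝ) + 2)) := by
    funext t
    exact deriv_mul_const_field _
  rw [h2]
  exact deriv_mul_const_field _

theorem amOp_sep (hΩ : IsOpen Ω) (hsep : ∀ x ∈ Ω, u x = ∑ i, f i (x i))
    (hpos : ∀ x ∈ Ω, (hess u x).PosDef) {x : Fin n → ℝ} (hx : x ∈ Ω) :
    amOp u x = ∑ i, (∏ k ∈ Finset.univ.erase i, deriv (deriv (f k)) (x k)) *
      (deriv (deriv (fun t => deriv (deriv (f i)) t ^ (-((n : ℝ) + 1) / ((n : ℝ) + 2)))) (x i) *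
        (∏ k ∈ Finset.univ.erase i, deriv (deriv (f k)) (x k)) ^
          (-((n : ℝ) + 1) / ((n : ℝ) + 2))) := by
  unfold amOp
  have hdet : (hess u x).det ≠ 0 := by
    rw [hess_sep hΩ hsep hx, Matrix.det_diagonal]
    exact Finset.prod_ne_zero_iff.mpr fun k _ => (hess_diag_pos hΩ hsep hpos hx k).ne'
  have hU : (hess u x).det • (hess u x)⁻¹ =
      Matrix.diagonal fun i => ∏ k ∈ Finset.univ.erase i, deriv (deriv (f k)) (x k) := by
    rw [Matrix.inv_def, smul_smul, Ring.inverse_eq_inv', mul_inv_cancel₀ hdet, one_smul,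
      hess_sep hΩ hsep hx, Matrix.adjugate_diagonal]
  rw [hU]
  apply Finset.sum_congr rfl
  intro i _
  rw [Finset.sum_eq_single i]
  · rw [Matrix.diagonal_apply_eq, pderiv_pderiv_amW_sep hΩ hsep hpos hx i]
  · intro j _ hji
    rw [Matrix.diagonal_apply_ne _ (Ne.symm hji), zero_mul]
  · intro h
    exact absurd (Finset.mem_univ i) h

end sep

end Vale.Agent.Lib.P252
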