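import Vale.Agent.Lib.P252.Sep2

/-!
# Additively separable functions: separation of variables
-/

namespace Vale.Agent.Lib.P252

open Filter Topology
open scoped ContDiff

variable {n : ℕ}

/-- The one-variable quantity attached to the `i`-th summand: with `g = fᵢ''` and exponent
`e = -(n+1)/(n+2)`, this is `(g^e)'' / g^(1+e)`. -/
noncomputable def sepPsi (n : ℕ) (F : ℝ → ℝ) (t : ℝ) : ℝ :=
  deriv (deriv (fun s => deriv (deriv F) s ^ (-((n : ℝ) + 1) / ((n : ℝ) + 2)))) t /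
    deriv (deriv F) t ^ (1 + -((n : ℝ) + 1) / ((n : ℝ) + 2))

section sep

variable {Ω : Set (Fin n → ℝ)} {u : (Fin n → ℝ) → ℝ} {f : Fin n → ℝ → ℝ}

theorem sep_identity (hΩ : IsOpen Ω) (hsep : ∀ x ∈ Ω, u x = ∑ i, f i (x i))
    (hpos : ∀ x ∈ Ω, (hess u x).PosDef) (hAM : ∀ x ∈ Ω, amOp u x = 0)
    {x : Fin n → ℝ} (hx : x ∈ Ω) :
    ∑ i, sepPsi n (f i) (x i) = 0 := by
  have hg : ∀ k, 0 < deriv (deriv (f k)) (x k) := fun k => hess_diag_pos hΩ hsep hpos hx k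
  have hG : 0 < ∏ k, deriv (deriv (f k)) (x k) ^ (1 + -((n : ℝ) + 1) / ((n : ℝ) + 2)) :=
    Finset.prod_pos fun k _ => Real.rpow_pos_of_pos (hg k) _
  have h := hAM x hx
  rw [amOp_sep hΩ hsep hpos hx] at h
  have h2 : ∑ i, (∏ k ∈ Finset.univ.erase i, deriv (deriv (f k)) (x k)) *
      (deriv (deriv (fun t => deriv (deriv (f i)) t ^ (-((n : ℝ) + 1) / ((n : ℝ) + 2)))) (x i) *
        (∏ k ∈ Finset.univ.erase i, deriv (deriv (f k)) (x k)) ^
          (-((n : ℝ) + 1) / ((n : ℝ) + 2))) =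
      (∏ k, deriv (deriv (f k)) (x k) ^ (1 + -((n : ℝ) + 1) / ((n : ℝ) + 2))) *
        ∑ i, sepPsi n (f i) (x i) := by
    rw [Finset.mul_sum]
    apply Finset.sum_congr rfl
    intro i _
    have hC : 0 < ∏ k ∈ Finset.univ.erase i, deriv (deriv (f k)) (x k) :=
      Finset.prod_pos fun k _ => hg k
    have e1 : (∏ k ∈ Finset.univ.erase i, deriv (deriv (f k)) (x k)) ^
        (1 + -((n : ℝ) + 1) / ((n : ℝ) + 2)) =
        (∏ k ∈ Finset.univ.erase i, deriv (deriv (f k)) (x k)) *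
        (∏ k ∈ Finset.univ.erase i, deriv (deriv (f k)) (x k)) ^
          (-((n : ℝ) + 1) / ((n : ℝ) + 2)) := by
      rw [Real.rpow_add hC, Real.rpow_one]
    have e2 : (∏ k ∈ Finset.univ.erase i, deriv (deriv (f k)) (x k)) ^
        (1 + -((n : ℝ) + 1) / ((n : ℝ) + 2)) =
        ∏ k ∈ Finset.univ.erase i,
          deriv (deriv (f k)) (x k) ^ (1 + -((n : ℝ) + 1) / ((n : ℝ) + 2)) :=
      (Real.finsetProd_rpow _ _ (fun k _ => (hg k).le) _).symm
    have e3 : deriv (deriv (f i)) (x i) ^ (1 + -((n : ℝ) + 1) / ((n : ℝ) + 2)) *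
        ∏ k ∈ Finset.univ.erase i,
          deriv (deriv (f k)) (x k) ^ (1 + -((n : ℝ) + 1) / ((n : ℝ) + 2)) =
        ∏ k, deriv (deriv (f k)) (x k) ^ (1 + -((n : ℝ) + 1) / ((n : ℝ) + 2)) :=
      Finset.mul_prod_erase Finset.univ
        (fun k => deriv (deriv (f k)) (x k) ^ (1 + -((n : ℝ) + 1) / ((n : ℝ) + 2)))
        (Finset.mem_univ i)
    have hgi : 0 < deriv (deriv (f i)) (x i) ^ (1 + -((n : ℝ) + 1) / ((n : ℝ) + 2)) :=
      Real.rpow_pos_of_pos (hg i) _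
    have key : ∀ A P Ae gi1 : ℝ, gi1 ≠ 0 → A * (P * Ae) = gi1 * (A * Ae) * (P / gi1) := by
      intro A P Ae gi1 hne
      field_simp
    unfold sepPsi
    rw [← e3, ← e2, e1]
    exact key _ _ _ _ hgi.ne'
  rw [h2] at h
  rcases mul_eq_zero.mp h with h3 | h3
  · exact absurd h3 hG.ne'
  · exact h3

theorem sepPsi_eventually_const (hΩ : IsOpen Ω) (hsep : ∀ x ∈ Ω, u x = ∑ i, f i (x i))
    (hpos : ∀ x ∈ Ω, (hess u x).PosDef) (hAM : ∀ x ∈ Ω, amOp u x = 0)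
    {x : Fin n → ℝ} (hx : x ∈ Ω) (i : Fin n) :
    ∀ᶠ s in 𝓝 (x i), sepPsi n (f i) s = sepPsi n (f i) (x i) := by
  filter_upwards [eventually_update_mem hΩ hx i] with s hs
  have h1 := sep_identity hΩ hsep hpos hAM hs
  have h2 := sep_identity hΩ hsep hpos hAM hx
  rw [sum_update (fun k t => sepPsi n (f k) t)] at h1
  rw [← Finset.add_sum_erase _ _ (Finset.mem_univ i)] at h2
  linarith

end sep

end Vale.Agent.Lib.P252
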